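import Vale.Agent.H88.ReturnCode

/-!
# P329: a one-state-removal criterion for generalized star height at most one

Let `M` be a finite deterministic automaton over a finite alphabet.  Suppose there are a
state `q` and a rank function on the states such that every transition starting from a
state `p ≠ q` either leads to `q`, or is a self-loop, or strictly increases the rank
(that is, deleting the single state `q` leaves a partially ordered automaton).  Then the
language accepted by `M` (for an arbitrary start state and an arbitrary set of accepting
states, both being part of `M`) has generalized star height at most one.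
-/

namespace Vale.Agent.Results.P329.A_RemovalCriterion

open Vale.Agent.H88

theorem result {α σ : Type} [Fintype α] [Fintype σ] (M : DFA α σ) (q : σ) (rk : σ → ℕ)
    (h : ∀ p a, p ≠ q → M.step p a = q ∨ M.step p a = p ∨ rk p < rk (M.step p a)) :
    HasGSH M.accepts 1 := by
  classical
  have key : HasGSH (⨆ t, ⨆ (_ : t ∈ M.accept), pathLang M.step M.start t) 1 :=
    HasGSH.iSup_prop _ _ fun t _ => hasGSH_pathLang_of_removal M.step q rk h M.start t
  refine key.of_eq ?_
  ext w
  rw [Language.mem_iSup]
  constructor
  · rintro ⟨t, ht⟩
    rw [Language.mem_iSup] at ht
    obtain ⟨hacc, hw⟩ := ht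
    have hw' : w.foldl M.step M.start = t := hw
    change w.foldl M.step M.start ∈ M.accept
    rw [hw']
    exact hacc
  · intro hw
    have hw' : w.foldl M.step M.start ∈ M.accept := hw
    refine ⟨w.foldl M.step M.start, ?_⟩
    rw [Language.mem_iSup]
    exact ⟨hw', rfl⟩

end Vale.Agent.Results.P329.A_RemovalCriterion
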