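import Vale.Agent.H72.GSH3.Class3
import Vale.Agent.H72.Pos.UnitGroup
import Vale.Agent.H72.Z4.Group
import Vale.Agent.H88.SF.Grp

/-!
# P329: unit clocks and four classes of finite groups

Five families of regular languages of generalized star height at most one.

1. Unit clocks. For a finite alphabet, a set `S` of letters, ANY letter `x` (in `S` or not),
   `k, m ≥ 1` and residues `r`, `c`: the words in which the number of positions carrying `x`
   and preceded by a number of letters of `S` congruent to `r` modulo `k` is congruent to `c`
   modulo `m`. (For `S` the whole alphabet: positions `i ≡ r` modulo `k` carrying `x`.)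

In 2 to 5 a language is recognized through `φ` (a map from the letters to a finite group `G`)
if it is the set of all words whose letter images multiply, in order, into a given subset of
`G`.

2. `G` has a homomorphism `π` to a finite abelian group with commutative kernel `A`, and every
   letter is mapped into `A` or into one fixed coset `t A`.
3. `G` has a homomorphism `π` to `ZMod 4` whose kernel has exponent two (all morphisms `φ`).
4. `G` is nilpotent of class at most three (all morphisms `φ`).
5. `G` has a homomorphism `π` to `(ZMod p)^n`, `p` prime, with commutative kernel (all `φ`).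
-/

namespace Vale.Agent.Results.P329.B_NestedModularCounting

open Vale.Agent.H88

theorem result :
    (∀ (α : Type) [Fintype α] [DecidableEq α] (S : Finset α) (x : α) (k m : ℕ), 0 < k → 0 < m →
      ∀ r c : ℕ, HasGSH ({w : List α | ((Finset.range w.length).filter
        (fun i => w[i]? = some x ∧ (w.take i).countP (fun y => y ∈ S) ≡ r [MOD k])).card
          ≡ c [MOD m]} : Language α) 1) ∧
    (∀ (α : Type) [Fintype α] (G : Type) [Group G] [Fintype G] (V : Type) [AddCommGroup V]
      [Fintype V] (π : G → V), (∀ a b : G, π (a * b) = π a + π b) →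
        (∀ a b : G, π a = 0 → π b = 0 → a * b = b * a) → ∀ (φ : α → G) (t : G),
          (∀ y : α, π (φ y) = 0 ∨ π (φ y) = π t) → ∀ S : Set G,
            HasGSH ({w : List α | (w.map φ).prod ∈ S} : Language α) 1) ∧
    (∀ (α : Type) [Fintype α] (G : Type) [Group G] [Fintype G] (π : G → ZMod 4),
      (∀ a b : G, π (a * b) = π a + π b) → (∀ a : G, π a = 0 → a * a = 1) →
        ∀ (φ : α → G) (S : Set G), HasGSH ({w : List α | (w.map φ).prod ∈ S} : Language α) 1) ∧
    (∀ (α : Type) [Fintype α] (G : Type) [Group G] [Fintype G] [Group.IsNilpotent G],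
      Group.nilpotencyClass G ≤ 3 → ∀ (φ : α → G) (S : Set G),
        HasGSH ({w : List α | (w.map φ).prod ∈ S} : Language α) 1) ∧
    (∀ (α : Type) [Fintype α] (G : Type) [Group G] [Fintype G] (p : ℕ), p.Prime →
      ∀ (n : ℕ) (π : G → Fin n → ZMod p), (∀ a b : G, π (a * b) = π a + π b) →
        (∀ a b : G, π a = 0 → π b = 0 → a * b = b * a) → ∀ (φ : α → G) (S : Set G),
          HasGSH ({w : List α | (w.map φ).prod ∈ S} : Language α) 1) := by
  refine ⟨?_, ?_, ?_, ?_, ?_⟩
  · intro α _ _ S x k m hk hm r c
    exact Vale.Agent.H72.hasGSH_unitCount_full S x k m hk hm r c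
  · intro α _ G _ _ V _ _ π hπ hab φ t hφ S
    refine Vale.Agent.H72.hasGSH_group_unitGen
      (MonoidHom.mk' (fun g => Multiplicative.ofAdd (π g)) (fun a b => by rw [hπ]; rfl))
      (fun a b ha hb => hab a b ha hb) φ t ?_ S
    intro y
    rcases hφ y with h | h
    · left
      change Multiplicative.ofAdd (π (φ y)) = 1
      rw [h]
      rfl
    · right
      change Multiplicative.ofAdd (π (φ y)) = Multiplicative.ofAdd (π t)
      rw [h]
  · intro α _ G _ _ π hπ h2 φ S
    exact Vale.Agent.H72.hasGSH_group_Z4
      (MonoidHom.mk' (fun g => Multiplicative.ofAdd (π g)) (fun a b => by rw [hπ]; rfl))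
      (fun a ha => h2 a ha) φ S
  · intro α _ G _ _ _ hc φ S
    exact Vale.Agent.H72.hasGSH_group_nilpotent3 hc φ S
  · intro α _ G _ _ p hp n π hπ hab φ S
    have : Fact p.Prime := ⟨hp⟩
    exact hasGSH_group_elemAb p n
      (MonoidHom.mk' (fun g => Multiplicative.ofAdd (π g)) (fun a b => by rw [hπ]; rfl))
      (fun a b ha hb => hab a b ha hb) φ S

end Vale.Agent.Results.P329.B_NestedModularCounting
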