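import Vale.Agent.H88.CounterProduct

/-!
# P329: modular counting of factorizations with star-free components

Let `K` and `K'` be star-free languages (languages of generalized star height `0`) over any
alphabet, let `m ≥ 1` and let `c` be a natural number. The language of all words `w` such that

  the number of cut positions `i` (with `0 ≤ i ≤ |w|`) for which the initial segment of `w` of length `i`
  lies in `K` and the remaining suffix lies in `K'`

is congruent to `c` modulo `m` has generalized star height at most one. In other words, the
product with counter modulo `m` of two star-free languages has generalized star height at most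
one.
-/

namespace Vale.Agent.Results.P329.C_StarFreeCounterProduct

open Vale.Agent.H88

theorem result {α : Type} (K K' : Language α) (hK : HasGSH K 0) (hK' : HasGSH K' 0)
    (m : ℕ) (hm : 0 < m) (c : ℕ) :
    HasGSH ({w : List α | Set.ncard {i : ℕ | i ≤ w.length ∧ w.take i ∈ K ∧ w.drop i ∈ K'}
      ≡ c [MOD m]} : Language α) 1 :=
  hasGSH_ncard_split hK hK' m hm c

end Vale.Agent.Results.P329.C_StarFreeCounterProduct
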