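import Vale.Agent.H72.GSH3.Class3
import Vale.Agent.H88.SF.Grp

/-!
# P329: class three nilpotent groups, scattered subwords of length three, and
abelian-by-elementary-abelian groups

Three families of regular languages of generalized star height at most one.

1. Languages recognized by a finite nilpotent group `G` of class at most three: the set of all
   words whose letter images (under a map `φ` from the letters to `G`) multiply, in order, to an
   element of a given subset `S` of `G`.
2. Counting scattered subwords of length at most three modulo `M`: every language `L` that is
   a union of classes of the equivalence relation (for every word `u` of length at most three,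
   the numbers of occurrences of `u` as a scattered subword agree modulo `M`). The number of
   occurrences of `u` in `w` is the number of sublists of `w` (one for each set of positions)
   equal to `u`.
3. Languages recognized by a finite group `G` with a homomorphism `π` to `(ZMod p)^n`, `p`
   prime, whose kernel is commutative.
-/

namespace Vale.Agent.Results.P329.D4_SubwordsClassThree

open Vale.Agent.H88

theorem result :
    (∀ (α : Type) [Fintype α] (G : Type) [Group G] [Fintype G] [Group.IsNilpotent G],
      Group.nilpotencyClass G ≤ 3 → ∀ (φ : α → G) (S : Set G),
        HasGSH ({w : List α | (w.map φ).prod ∈ S} : Language α) 1) ∧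
    (∀ (α : Type) [Fintype α] [DecidableEq α] (M : ℕ), 0 < M → ∀ L : Language α,
      (∀ w w' : List α,
        (∀ u : List α, u.length ≤ 3 →
          (List.sublists w).count u ≡ (List.sublists w').count u [MOD M]) →
        w ∈ L → w' ∈ L) →
      HasGSH L 1) ∧
    (∀ (α : Type) [Fintype α] (G : Type) [Group G] [Fintype G] (p : ℕ), p.Prime →
      ∀ (n : ℕ) (π : G → Fin n → ZMod p), (∀ a b : G, π (a * b) = π a + π b) →
        (∀ a b : G, π a = 0 → π b = 0 → a * b = b * a) → ∀ (φ : α → G) (S : Set G),
          HasGSH ({w : List α | (w.map φ).prod ∈ S} : Language α) 1) := by
  refine ⟨?_, ?_, ?_⟩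
  · intro α _ G _ _ _ hc φ S
    exact Vale.Agent.H72.hasGSH_group_nilpotent3 hc φ S
  · intro α _ _ M hM L hL
    exact Vale.Agent.H72.hasGSH_of_subCount3 M hM L hL
  · intro α _ G _ _ p hp n π hπ hab φ S
    have : Fact p.Prime := ⟨hp⟩
    exact hasGSH_group_elemAb p n
      (MonoidHom.mk' (fun g => Multiplicative.ofAdd (π g)) (fun a b => by rw [hπ]; rfl))
      (fun a b ha hb => hab a b ha hb) φ S

end Vale.Agent.Results.P329.D4_SubwordsClassThree
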