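import Vale.Agent.H72.GSH3.Class3
import Vale.Agent.H88.SF.Grp

/-!
# P329: nilpotent groups of class at most three, and abelian-by-elementary-abelian groups

Two classes of finite groups all of whose languages have generalized star height at most one.
A language is recognized by the finite group `G` if it is the set of all words whose letter
images (under a map `φ` from the letters to `G`) multiply, in order, to an element of a given
subset `S` of `G`.

1. `G` nilpotent of class at most three (no restriction on the exponent). Class two is the
   theorem of Pin, Straubing and Therien; class three is obtained from the counting of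
   scattered subwords of length three by polarisation through unit clocks.
2. `G` with a homomorphism `π` to `(ZMod p)^n`, `p` prime, whose kernel is commutative; that is,
   `G` has an abelian normal subgroup with elementary abelian `p`-group quotient.
-/

namespace Vale.Agent.Results.P329.D5_NilpotentClassThree

open Vale.Agent.H88

theorem result :
    (∀ (α : Type) [Fintype α] (G : Type) [Group G] [Fintype G] [Group.IsNilpotent G],
      Group.nilpotencyClass G ≤ 3 → ∀ (φ : α → G) (S : Set G),
        HasGSH ({w : List α | (w.map φ).prod ∈ S} : Language α) 1) ∧
    (∀ (α : Type) [Fintype α] (G : Type) [Group G] [Fintype G] (p : ℕ), p.Prime →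
      ∀ (n : ℕ) (π : G → Fin n → ZMod p), (∀ a b : G, π (a * b) = π a + π b) →
        (∀ a b : G, π a = 0 → π b = 0 → a * b = b * a) → ∀ (φ : α → G) (S : Set G),
          HasGSH ({w : List α | (w.map φ).prod ∈ S} : Language α) 1) := by
  constructor
  · intro α _ G _ _ _ hc φ S
    exact Vale.Agent.H72.hasGSH_group_nilpotent3 hc φ S
  · intro α _ G _ _ p hp n π hπ hab φ S
    have : Fact p.Prime := ⟨hp⟩
    exact hasGSH_group_elemAb p n
      (MonoidHom.mk' (fun g => Multiplicative.ofAdd (π g)) (fun a b => by rw [hπ]; rfl))
      (fun a b ha hb => hab a b ha hb) φ S

end Vale.Agent.Results.P329.D5_NilpotentClassThree
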