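import Vale.Agent.H88.SF.Grp

/-!
# P329: groups with an abelian normal subgroup and elementary abelian quotient

Let `G` be a finite group, `p` a prime and `π` a homomorphism from `G` to the additive
group `(ZMod p)^n` (that is, `π (a * b) = π a + π b`) whose kernel is commutative; equivalently,
`G` has an abelian normal subgroup `A` such that `G/A` is an elementary abelian `p`-group, for
instance an abelian normal subgroup of prime index. Then every language recognized by `G` has
generalized star height at most one: for every assignment `φ` of elements of `G` to the
letters of a finite alphabet and every subset `S` of `G`, the language of all words whose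
letter images multiply to an element of `S` is denoted by a generalized regular expression of
star height at most one.

For `p = 2` these are the groups dividing a semidirect product of a commutative group by
`(ZMod 2)^n`; for odd `p` the class contains, for example, the alternating group on four points,
the wreath products of a cyclic group by a cyclic group of prime order (with arbitrary
generators), and the Frobenius groups of order `q * p`.
-/

namespace Vale.Agent.Results.P329.D_AbelianByElementaryAbelian

open Vale.Agent.H88

theorem result {α : Type} [Fintype α] {G : Type} [Group G] [Fintype G] (p : ℕ) (hp : p.Prime)
    (n : ℕ) (π : G → Fin n → ZMod p) (hπ : ∀ a b : G, π (a * b) = π a + π b)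
    (hab : ∀ a b : G, π a = 0 → π b = 0 → a * b = b * a) (φ : α → G) (S : Set G) :
    HasGSH ({w : List α | (w.map φ).prod ∈ S} : Language α) 1 := by
  have : Fact p.Prime := ⟨hp⟩
  exact hasGSH_group_elemAb p n
    (MonoidHom.mk' (fun g => Multiplicative.ofAdd (π g)) (fun a b => by rw [hπ]; rfl))
    (fun a b ha hb => hab a b ha hb) φ S

end Vale.Agent.Results.P329.D_AbelianByElementaryAbelian
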